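import Mathlib

set_option autoImplicit false

/-!
# S0316 / RealCore / CaseA

Case A of the dichotomy is impossible.
(See `Crest/Agent/S0316/PLAN.md`, section RealCore, for the setting and the derivation.)
-/

namespace Crest.Agent.S0316

/-- Case A is impossible. -/
theorem caseA_false (x0 x1 x2 y0 y1 y2 ρ cr ci : ℝ) (hρ : 0 < ρ)
    (hx : x0 ^ 2 + x1 ^ 2 + x2 ^ 2 = 1 / 2 - ρ ^ 2)
    (hy : y0 ^ 2 + y1 ^ 2 + y2 ^ 2 = 1 / 2) (hxy : x0 * y0 + x1 * y1 + x2 * y2 = 0)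
    (hcs : cr ^ 2 + ci ^ 2 = 1)
    (TX0 : (1 + 9 / 16 * (1 - 2 * ρ ^ 2)) * x0
      = (1 - 9 / 16 * (1 - 2 * ρ ^ 2)) * x0 + 3 / 2 * (1 - 2 * ρ ^ 2) * y0)
    (TY0 : (1 + 9 / 16 * (1 - 2 * ρ ^ 2)) * y0 = (1 - 9 / 16 * (1 - 2 * ρ ^ 2)) * y0 - 3 / 2 * x0)
    (TX1 : (1 + 9 / 16 * (1 - 2 * ρ ^ 2)) * x1
      = (1 - 9 / 16 * (1 - 2 * ρ ^ 2)) * x1 + 3 / 2 * (1 - 2 * ρ ^ 2) * y1)
    (TY1 : (1 + 9 / 16 * (1 - 2 * ρ ^ 2)) * y1 = (1 - 9 / 16 * (1 - 2 * ρ ^ 2)) * y1 - 3 / 2 * x1)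
    (TX2 : (1 + 9 / 16 * (1 - 2 * ρ ^ 2)) * x2
      = (1 - 9 / 16 * (1 - 2 * ρ ^ 2)) * x2 + 3 / 2 * (1 - 2 * ρ ^ 2) * y2)
    (TY2 : (1 + 9 / 16 * (1 - 2 * ρ ^ 2)) * y2 = (1 - 9 / 16 * (1 - 2 * ρ ^ 2)) * y2 - 3 / 2 * x2)
    (G0r : x0 = -(cr * (7 * x0 + 4 * x1 + 4 * ρ) - ci * (7 * y0 + 4 * y1)) / 9)
    (G0i : y0 = -(ci * (7 * x0 + 4 * x1 + 4 * ρ) + cr * (7 * y0 + 4 * y1)) / 9)
    (G1r : x1 = -(cr * (-4 * x0 + 8 * x1 - ρ) - ci * (-4 * y0 + 8 * y1)) / 9)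
    (G1i : y1 = -(ci * (-4 * x0 + 8 * x1 - ρ) + cr * (-4 * y0 + 8 * y1)) / 9)
    (G2r : x2 = -(cr * x2 - ci * y2))
    (G2i : y2 = -(ci * x2 + cr * y2))
    (G3r : ρ = -(cr * (-4 * x0 - x1 + 8 * ρ) - ci * (-4 * y0 - y1)) / 9)
    (G3i : 0 = -(ci * (-4 * x0 - x1 + 8 * ρ) + cr * (-4 * y0 - y1)) / 9) : False := by
  -- μ := 1 - 2ρ² is nonnegative
  have hμ0 : 0 ≤ 1 - 2 * ρ ^ 2 := by nlinarith [sq_nonneg x0, sq_nonneg x1, sq_nonneg x2]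
  have hpos : 0 < 27 / 32 * (1 - 2 * ρ ^ 2) + 3 / 2 := by linarith
  -- x_j = -(3/4) μ y_j
  have ex0 : x0 = -(3 / 4) * (1 - 2 * ρ ^ 2) * y0 := by linear_combination (2 / 3) * TY0
  have ex1 : x1 = -(3 / 4) * (1 - 2 * ρ ^ 2) * y1 := by linear_combination (2 / 3) * TY1
  have ex2 : x2 = -(3 / 4) * (1 - 2 * ρ ^ 2) * y2 := by linear_combination (2 / 3) * TY2
  -- μ y_j = 0
  have hm0 : (1 - 2 * ρ ^ 2) * y0 = 0 := by
    have h : (1 - 2 * ρ ^ 2) * y0 * (27 / 32 * (1 - 2 * ρ ^ 2) + 3 / 2) = 0 := by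
      linear_combination (-1) * TX0 + (9 / 8) * (1 - 2 * ρ ^ 2) * ex0
    rcases mul_eq_zero.mp h with h | h
    · exact h
    · exact absurd h hpos.ne'
  have hm1 : (1 - 2 * ρ ^ 2) * y1 = 0 := by
    have h : (1 - 2 * ρ ^ 2) * y1 * (27 / 32 * (1 - 2 * ρ ^ 2) + 3 / 2) = 0 := by
      linear_combination (-1) * TX1 + (9 / 8) * (1 - 2 * ρ ^ 2) * ex1
    rcases mul_eq_zero.mp h with h | h
    · exact h
    · exact absurd h hpos.ne'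
  have hm2 : (1 - 2 * ρ ^ 2) * y2 = 0 := by
    have h : (1 - 2 * ρ ^ 2) * y2 * (27 / 32 * (1 - 2 * ρ ^ 2) + 3 / 2) = 0 := by
      linear_combination (-1) * TX2 + (9 / 8) * (1 - 2 * ρ ^ 2) * ex2
    rcases mul_eq_zero.mp h with h | h
    · exact h
    · exact absurd h hpos.ne'
  -- μ = 0
  have hμ : 1 - 2 * ρ ^ 2 = 0 := by
    by_contra hne
    have e0 : y0 = 0 := (mul_eq_zero.mp hm0).resolve_left hne
    have e1 : y1 = 0 := (mul_eq_zero.mp hm1).resolve_left hne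
    have e2 : y2 = 0 := (mul_eq_zero.mp hm2).resolve_left hne
    rw [e0, e1, e2] at hy
    norm_num at hy
  -- x = 0
  have hx0 : x0 = 0 := by rw [ex0, hμ]; ring
  have hx1 : x1 = 0 := by rw [ex1, hμ]; ring
  subst hx0 hx1
  -- cr = -8/9
  have hcr : cr = -8 / 9 := by
    have h : ρ * (9 * cr + 8) = 0 := by
      linear_combination 9 * cr * G3r + 9 * ci * G3i - 8 * ρ * hcs
    rcases mul_eq_zero.mp h with h | h
    · exact absurd h hρ.ne'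
    · linarith
  subst hcr
  have hci : ci ^ 2 = 17 / 81 := by linear_combination hcs
  have h0 : ci * (7 * y0 + 4 * y1) = -32 / 9 * ρ := by linear_combination (-9) * G0r
  have h1 : ci * (-4 * y0 + 8 * y1) = 8 / 9 * ρ := by linear_combination (-9) * G1r
  have hY0 : ci * y0 = -4 / 9 * ρ := by linear_combination (1 / 9) * h0 - (1 / 18) * h1
  have hY1 : ci * y1 = -1 / 9 * ρ := by linear_combination (1 / 18) * h0 + (7 / 72) * h1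
  have hρ0 : ρ = 0 := by
    linear_combination (17 / 18) * hY1 + (16 / 9) * hY0 - (ρ / 2) * hci - (9 / 2) * ci * G1i
  exact hρ.ne' hρ0

end Crest.Agent.S0316
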