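import Mathlib

set_option autoImplicit false

/-!
# S0316 / RealCore / CaseB

Case B of the dichotomy: exactly the three solutions.
(See `Crest/Agent/S0316/PLAN.md`, section RealCore, for the setting and the derivation.)

Structure of the proof (all real algebra):
* `caseB_half`  : half-angle parametrisation `cr = p² - q²`, `ci = 2pq`, `p² + q² = 1`;
* `caseB_core`  : the polynomial system in `α₁ α₂ β₁ β₂` has only the three solutions;
* `caseB_facts` : the cone equations and `B0 B1 B2` give that system after the rotation by `u = p + iq`;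
* `caseB_solve` : the eigen-decomposition of `D Lᵀ` (derived from the `G` equations) and assembly.
-/

namespace Crest.Agent.S0316

/-- Half-angle parametrisation of a point of the unit circle. -/
theorem caseB_half (cr ci : ℝ) (h : cr ^ 2 + ci ^ 2 = 1) :
    ∃ p q : ℝ, p ^ 2 + q ^ 2 = 1 ∧ cr = p ^ 2 - q ^ 2 ∧ ci = 2 * p * q := by
  by_cases hc : cr = -1
  · have h0 : ci ^ 2 = 0 := by rw [hc] at h; linarith
    have h1 : ci = 0 := by simpa using h0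
    exact ⟨0, 1, by norm_num, by rw [hc]; norm_num, by rw [h1]; norm_num⟩
  · have h2 : (1 + cr) ≠ 0 := fun h3 => hc (by linarith)
    have h3 : 0 ≤ 1 + cr := by nlinarith [sq_nonneg ci, sq_nonneg (1 + cr), sq_nonneg (1 - cr)]
    have h1 : 0 < 1 + cr := lt_of_le_of_ne h3 (Ne.symm h2)
    have hs0 : (0 : ℝ) ≤ 2 * (1 + cr) := by linarith
    have hs2 : Real.sqrt (2 * (1 + cr)) ^ 2 = 2 * (1 + cr) := Real.sq_sqrt hs0
    have hspos : 0 < Real.sqrt (2 * (1 + cr)) := Real.sqrt_pos.mpr (by linarith)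
    obtain ⟨s, hs⟩ : ∃ s : ℝ, s = Real.sqrt (2 * (1 + cr)) := ⟨_, rfl⟩
    rw [← hs] at hs2 hspos
    have hsne : s ≠ 0 := ne_of_gt hspos
    have hs2' : s ^ 2 ≠ 0 := pow_ne_zero 2 hsne
    have hp2 : ((1 + cr) / s) ^ 2 = (1 + cr) / 2 := by
      rw [div_pow, hs2]; field_simp
    have hq2 : (ci / s) ^ 2 = (1 - cr) / 2 := by
      rw [div_pow, hs2]; field_simp; nlinarith
    have hpq : (1 + cr) / s * (ci / s) = ci / 2 := by
      have : (1 + cr) / s * (ci / s) = (1 + cr) * ci / s ^ 2 := by ring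
      rw [this, hs2]; field_simp
    refine ⟨(1 + cr) / s, ci / s, ?_, ?_, ?_⟩
    · rw [hp2, hq2]; ring
    · rw [hp2, hq2]; ring
    · rw [mul_assoc, hpq]; ring

/-- The reduced polynomial system has exactly the three solutions. -/
theorem caseB_core (α₁ α₂ β₁ β₂ : ℝ)
    (N1 : 18 * α₁ ^ 2 + α₂ ^ 2 = 1 / 2)
    (N2 : 9 * β₁ ^ 2 + 2 * β₂ ^ 2 = 1 / 2)
    (S2 : 2 * α₁ * β₂ = 3 / 4 * (α₁ ^ 2 + 4 * β₁ ^ 2 - β₂ ^ 2))
    (S3 : α₂ * (α₁ - 3 / 4 * (1 - 2 * (α₁ ^ 2 + (2 * β₁ - β₂) ^ 2)) * (2 * β₁ - β₂)) = 0)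
    (P : α₂ * β₁ = 0) :
    α₂ = 0 ∧ ((β₁ = 0 ∧ β₂ = -3 * α₁) ∨ (17 * β₂ = 27 * α₁ ∧ 2601 * β₁ ^ 2 = 104)) := by
  have hα₂ : α₂ = 0 := by
    by_contra hne
    have hβ₁ : β₁ = 0 := by
      rcases mul_eq_zero.mp P with h | h
      · exact absurd h hne
      · exact h
    subst hβ₁
    have hS : α₁ - 3 / 4 * (1 - 2 * (α₁ ^ 2 + (2 * 0 - β₂) ^ 2)) * (2 * 0 - β₂) = 0 := by
      rcases mul_eq_zero.mp S3 with h | h
      · exact absurd h hne
      · exact h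
    have hβ₂ : (β₂ - 1 / 2) * (β₂ + 1 / 2) = 0 := by linear_combination (1 / 2) * N2
    have hα₂pos : 0 < α₂ ^ 2 := by positivity
    rcases mul_eq_zero.mp hβ₂ with h | h
    · have hb : β₂ = 1 / 2 := by linarith
      subst hb
      have h6 : (6 * α₁ + 1) * (2 * α₁ - 3) = 0 := by linear_combination (-16) * hS
      rcases mul_eq_zero.mp h6 with h' | h'
      · have h7 : α₁ = -1 / 6 := by linarith
        subst h7
        nlinarith
      · have h7 : α₁ = 3 / 2 := by linarith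
        subst h7
        nlinarith
    · have hb : β₂ = -1 / 2 := by linarith
      subst hb
      have h6 : (6 * α₁ - 1) * (2 * α₁ + 3) = 0 := by linear_combination 16 * hS
      rcases mul_eq_zero.mp h6 with h' | h'
      · have h7 : α₁ = 1 / 6 := by linarith
        subst h7
        nlinarith
      · have h7 : α₁ = -3 / 2 := by linarith
        subst h7
        nlinarith
  refine ⟨hα₂, ?_⟩
  subst hα₂
  have hα₁ : α₁ ^ 2 = 1 / 36 := by linarith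
  have key : (β₂ + 3 * α₁) * (17 * β₂ - 27 * α₁) = 0 := by
    linear_combination 12 * S2 + 4 * N2 - 4 * N1
  rcases mul_eq_zero.mp key with h | h
  · left
    have hb2 : β₂ = -3 * α₁ := by linarith
    refine ⟨?_, hb2⟩
    have h0 : β₁ ^ 2 = 0 := by subst hb2; nlinarith
    simpa using h0
  · right
    refine ⟨by linarith, ?_⟩
    have hb2 : β₂ = 27 / 17 * α₁ := by linarith
    subst hb2
    nlinarith

/-- After the rotation by the half angle the cone equations and `B0 B1 B2` give the reduced system. -/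
theorem caseB_facts (p q ρ b a2 x0 x1 x2 y0 y1 y2 : ℝ) (hpq : p ^ 2 + q ^ 2 = 1)
    (e0 : x0 = 4 * p ^ 2 * ρ - q * b) (f0 : y0 = -4 * p * q * ρ - p * b)
    (e1 : x1 = (p ^ 2 - q ^ 2) * ρ + 4 * q * b) (f1 : y1 = -2 * p * q * ρ + 4 * p * b)
    (e2 : x2 = p * a2) (f2 : y2 = -q * a2)
    (hx : x0 ^ 2 + x1 ^ 2 + x2 ^ 2 = 1 / 2 - ρ ^ 2)
    (hy : y0 ^ 2 + y1 ^ 2 + y2 ^ 2 = 1 / 2) (hxy : x0 * y0 + x1 * y1 + x2 * y2 = 0)
    (B0 : x0 = -(3 / 4) * (1 - 2 * ρ ^ 2) * y0)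
    (B1 : y1 = 3 / 4 * x1)
    (B2 : x2 = -(3 / 4) * (1 - 2 * ρ ^ 2) * y2) :
    18 * (p * ρ) ^ 2 + a2 ^ 2 = 1 / 2 ∧
    9 * b ^ 2 + 2 * (2 * b - q * ρ) ^ 2 = 1 / 2 ∧
    2 * (p * ρ) * (2 * b - q * ρ) = 3 / 4 * ((p * ρ) ^ 2 + 4 * b ^ 2 - (2 * b - q * ρ) ^ 2) ∧
    a2 * (p * ρ - 3 / 4 * (1 - 2 * ((p * ρ) ^ 2 + (2 * b - (2 * b - q * ρ)) ^ 2))
        * (2 * b - (2 * b - q * ρ))) = 0 ∧
    a2 * b = 0 := by
  subst e0 f0 e1 f1 e2 f2
  refine ⟨?_, ?_, ?_, ?_, ?_⟩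
  · linear_combination p ^ 2 * hx - 2 * p * q * hxy + q ^ 2 * hy
      + (1 / 2 - (17 * p ^ 2 * ρ ^ 2 + a2 ^ 2) * (1 + p ^ 2 + q ^ 2)) * hpq
  · linear_combination q ^ 2 * hx + 2 * p * q * hxy + p ^ 2 * hy
      + (1 / 2 - (b ^ 2 + (4 * b - q * ρ) ^ 2) * (1 + p ^ 2 + q ^ 2)) * hpq
  · linear_combination ρ * B1
  · linear_combination ρ * B2 + (3 / 2 * q * ρ ^ 3 * a2) * hpq
  · linear_combination (-q * a2) * B0 - (-4 * p * q * ρ - p * b) * B2 - (a2 * b) * hpq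

/-- Case B: the three solutions.  With `a = 4 z₀ + z₁ + ρ`, `c₁ = -z₀ + 2 z₁ + 2ρ`,
`c₂ = z₁ - ρ`: either `c₁ = 0 ∧ 3 c₂ = -i a` (the degenerate point) or
`17 c₂ = 3 i a ∧ 289 c₁² = -104 a²` (the two nondegenerate points); and `z₂ = 0`. -/
theorem caseB_solve (x0 x1 x2 y0 y1 y2 ρ cr ci : ℝ) (hρ : 0 < ρ)
    (hx : x0 ^ 2 + x1 ^ 2 + x2 ^ 2 = 1 / 2 - ρ ^ 2)
    (hy : y0 ^ 2 + y1 ^ 2 + y2 ^ 2 = 1 / 2) (hxy : x0 * y0 + x1 * y1 + x2 * y2 = 0)
    (hcs : cr ^ 2 + ci ^ 2 = 1)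
    (B0 : x0 = -(3 / 4) * (1 - 2 * ρ ^ 2) * y0)
    (B1 : y1 = 3 / 4 * x1)
    (B2 : x2 = -(3 / 4) * (1 - 2 * ρ ^ 2) * y2)
    (G0r : -x0 = -(cr * (7 * x0 + 4 * x1 + 4 * ρ) - ci * (7 * y0 + 4 * y1)) / 9)
    (G0i : y0 = -(ci * (7 * x0 + 4 * x1 + 4 * ρ) + cr * (7 * y0 + 4 * y1)) / 9)
    (G1r : x1 = -(cr * (-4 * x0 + 8 * x1 - ρ) - ci * (-4 * y0 + 8 * y1)) / 9)
    (G1i : -y1 = -(ci * (-4 * x0 + 8 * x1 - ρ) + cr * (-4 * y0 + 8 * y1)) / 9)
    (G2r : -x2 = -(cr * x2 - ci * y2))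
    (G2i : y2 = -(ci * x2 + cr * y2))
    (G3r : ρ = -(cr * (-4 * x0 - x1 + 8 * ρ) - ci * (-4 * y0 - y1)) / 9)
    (G3i : 0 = -(ci * (-4 * x0 - x1 + 8 * ρ) + cr * (-4 * y0 - y1)) / 9) :
    x2 = 0 ∧ y2 = 0 ∧
    ((-x0 + 2 * x1 + 2 * ρ = 0 ∧ -y0 + 2 * y1 = 0 ∧
        3 * (x1 - ρ) = 4 * y0 + y1 ∧ 3 * y1 = -(4 * x0 + x1 + ρ)) ∨
     (17 * (x1 - ρ) = -3 * (4 * y0 + y1) ∧ 17 * y1 = 3 * (4 * x0 + x1 + ρ) ∧
        289 * ((-x0 + 2 * x1 + 2 * ρ) ^ 2 - (-y0 + 2 * y1) ^ 2)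
          = -104 * ((4 * x0 + x1 + ρ) ^ 2 - (4 * y0 + y1) ^ 2) ∧
        289 * ((-x0 + 2 * x1 + 2 * ρ) * (-y0 + 2 * y1))
          = -104 * ((4 * x0 + x1 + ρ) * (4 * y0 + y1)))) := by
  have _hρ := hρ -- positivity of `ρ` is not needed for the algebra
  obtain ⟨p, q, hpq, hcr, hci⟩ := caseB_half cr ci hcs
  subst hcr hci
  -- the `G` equations in the eigen-coordinates of `D Lᵀ`
  have GaR : (4 * x0 + x1 + ρ)
      = (p ^ 2 - q ^ 2) * (4 * x0 + x1 + ρ) - 2 * p * q * (4 * y0 + y1) := by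
    linear_combination (-4) * G0r + G1r + G3r
  have GaI : -(4 * y0 + y1)
      = 2 * p * q * (4 * x0 + x1 + ρ) + (p ^ 2 - q ^ 2) * (4 * y0 + y1) := by
    linear_combination (-4) * G0i + G1i + G3i
  have G1R : (-x0 + 2 * x1 + 2 * ρ)
      = -((p ^ 2 - q ^ 2) * (-x0 + 2 * x1 + 2 * ρ) - 2 * p * q * (-y0 + 2 * y1)) := by
    linear_combination G0r + 2 * G1r + 2 * G3r
  have G1I : -(-y0 + 2 * y1)
      = -(2 * p * q * (-x0 + 2 * x1 + 2 * ρ) + (p ^ 2 - q ^ 2) * (-y0 + 2 * y1)) := by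
    linear_combination G0i + 2 * G1i + 2 * G3i
  have G2R : (x1 - ρ) = -((p ^ 2 - q ^ 2) * (x1 - ρ) - 2 * p * q * y1) := by
    linear_combination G1r - G3r
  have G2I : -y1 = -(2 * p * q * (x1 - ρ) + (p ^ 2 - q ^ 2) * y1) := by
    linear_combination G1i - G3i
  -- the rotated vector lies in the eigenspaces
  have HA : q * (4 * x0 + x1 + ρ) + p * (4 * y0 + y1) = 0 := by
    linear_combination (q / 2) * GaR - (p / 2) * GaI
      - ((q * (4 * x0 + x1 + ρ) + p * (4 * y0 + y1)) / 2) * hpq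
  have H1 : p * (-x0 + 2 * x1 + 2 * ρ) - q * (-y0 + 2 * y1) = 0 := by
    linear_combination (p / 2) * G1R + (q / 2) * G1I
      - ((p * (-x0 + 2 * x1 + 2 * ρ) - q * (-y0 + 2 * y1)) / 2) * hpq
  have H2 : p * (x1 - ρ) - q * y1 = 0 := by
    linear_combination (p / 2) * G2R + (q / 2) * G2I - ((p * (x1 - ρ) - q * y1) / 2) * hpq
  have Hz : q * x2 + p * y2 = 0 := by
    linear_combination (-q / 2) * G2r + (p / 2) * G2i - ((q * x2 + p * y2) / 2) * hpq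
  have E2 : p * x0 - q * y0 = 4 * p * ρ := by linear_combination (-1) * H1 + 2 * H2
  -- parametrisation
  obtain ⟨b, hb⟩ : ∃ b : ℝ, b = -(q * x0 + p * y0) := ⟨_, rfl⟩
  obtain ⟨a2, ha2⟩ : ∃ a2 : ℝ, a2 = p * x2 - q * y2 := ⟨_, rfl⟩
  have e0 : x0 = 4 * p ^ 2 * ρ - q * b := by
    rw [hb]; linear_combination p * E2 - x0 * hpq
  have f0 : y0 = -4 * p * q * ρ - p * b := by
    rw [hb]; linear_combination (-q) * E2 - y0 * hpq
  have e1 : x1 = (p ^ 2 - q ^ 2) * ρ + 4 * q * b := by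
    rw [hb]; linear_combination p * H2 + q * HA - x1 * hpq
  have f1 : y1 = -2 * p * q * ρ + 4 * p * b := by
    rw [hb]; linear_combination (-q) * H2 + p * HA - y1 * hpq
  have e2 : x2 = p * a2 := by
    rw [ha2]; linear_combination q * Hz - x2 * hpq
  have f2 : y2 = -q * a2 := by
    rw [ha2]; linear_combination p * Hz - y2 * hpq
  obtain ⟨N1, N2, S2, S3, P⟩ :=
    caseB_facts p q ρ b a2 x0 x1 x2 y0 y1 y2 hpq e0 f0 e1 f1 e2 f2 hx hy hxy B0 B1 B2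
  obtain ⟨hα₂, hcases⟩ := caseB_core (p * ρ) a2 b (2 * b - q * ρ) N1 N2 S2 S3 P
  -- eigen-coordinates in terms of the parameters
  have hc1r : -x0 + 2 * x1 + 2 * ρ = 9 * q * b := by
    linear_combination (-1) * e0 + 2 * e1 - 2 * ρ * hpq
  have hc1i : -y0 + 2 * y1 = 9 * p * b := by
    linear_combination (-1) * f0 + 2 * f1
  have hc2r : x1 - ρ = 2 * q * (2 * b - q * ρ) := by
    linear_combination e1 + ρ * hpq
  have hc2i : y1 = 2 * p * (2 * b - q * ρ) := by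
    linear_combination f1
  have har : 4 * x0 + x1 + ρ = 18 * p * (p * ρ) := by
    linear_combination 4 * e0 + e1 - ρ * hpq
  have hai : 4 * y0 + y1 = -18 * q * (p * ρ) := by
    linear_combination 4 * f0 + f1
  have hN1 : 18 * (p * ρ) ^ 2 = 1 / 2 := by rw [hα₂] at N1; linarith
  refine ⟨by rw [e2, hα₂]; ring, by rw [f2, hα₂]; ring, ?_⟩
  rcases hcases with ⟨hb0, h1⟩ | ⟨h2, h3⟩
  · left
    refine ⟨?_, ?_, ?_, ?_⟩
    · linear_combination hc1r + 9 * q * hb0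
    · linear_combination hc1i + 9 * p * hb0
    · linear_combination 3 * hc2r - hai + 6 * q * h1
    · linear_combination 3 * hc2i + har + 6 * p * h1
  · right
    refine ⟨?_, ?_, ?_, ?_⟩
    · linear_combination 17 * hc2r + 3 * hai + 2 * q * h2
    · linear_combination 17 * hc2i - 3 * har + 2 * p * h2
    · rw [hc1r, hc1i, har, hai]
      linear_combination (p ^ 2 - q ^ 2) * 81 * ((416 / 18) * hN1 - (1 / 9) * h3)
    · rw [hc1r, hc1i, har, hai]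
      linear_combination 81 * p * q * ((1 / 9) * h3 - (416 / 18) * hN1)

end Crest.Agent.S0316
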