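import Mathlib

set_option autoImplicit false

/-!
# S0316 / RealCore / Dichotomy

Real-variable dichotomy: case A (`tw z = z`) or case B (`tw z = -D conj z`).
(See `Crest/Agent/S0316/PLAN.md`, section RealCore, for the setting and the derivation.)
-/

namespace Crest.Agent.S0316

/-- Lagrange identity consequence: a vector `d` with `d × Y = 0`, `d · Y = 0` and `|Y|² = 1/2`
vanishes. -/
theorem dichotomy_lagrange (d0 d1 d2 Y0 Y1 Y2 : ℝ) (hY : Y0 ^ 2 + Y1 ^ 2 + Y2 ^ 2 = 1 / 2)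
    (h01 : d0 * Y1 - d1 * Y0 = 0) (h12 : d1 * Y2 - d2 * Y1 = 0) (h02 : d0 * Y2 - d2 * Y0 = 0)
    (hd : d0 * Y0 + d1 * Y1 + d2 * Y2 = 0) : d0 = 0 ∧ d1 = 0 ∧ d2 = 0 := by
  have key : (d0 ^ 2 + d1 ^ 2 + d2 ^ 2) * (Y0 ^ 2 + Y1 ^ 2 + Y2 ^ 2)
      = (d0 * Y0 + d1 * Y1 + d2 * Y2) ^ 2 + (d0 * Y1 - d1 * Y0) ^ 2
        + (d1 * Y2 - d2 * Y1) ^ 2 + (d0 * Y2 - d2 * Y0) ^ 2 := by ring
  rw [hY, h01, h12, h02, hd] at key
  have hsum : d0 ^ 2 + d1 ^ 2 + d2 ^ 2 = 0 := by linarith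
  have h0 : d0 = 0 := by nlinarith [sq_nonneg d0, sq_nonneg d1, sq_nonneg d2]
  have h1 : d1 = 0 := by nlinarith [sq_nonneg d0, sq_nonneg d1, sq_nonneg d2]
  have h2 : d2 = 0 := by nlinarith [sq_nonneg d0, sq_nonneg d1, sq_nonneg d2]
  exact ⟨h0, h1, h2⟩

/-- Dichotomy: the twisted point is the point itself (case A) or its image under the
anti-holomorphic involution `z ↦ -D conj z`, `D = diag(1,-1,1,-1)` (case B). -/
theorem dichotomy (x0 x1 x2 y0 y1 y2 ρ X0 X1 X2 Y0 Y1 Y2 cr ci : ℝ) (hρ : ρ ≠ 0)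
    (hy : y0 ^ 2 + y1 ^ 2 + y2 ^ 2 = 1 / 2) (hxy : x0 * y0 + x1 * y1 + x2 * y2 = 0)
    (hc01 : X0 * Y1 - X1 * Y0 = x0 * y1 - x1 * y0)
    (hc12 : X1 * Y2 - X2 * Y1 = x1 * y2 - x2 * y1)
    (hc02 : X0 * Y2 - X2 * Y0 = x0 * y2 - x2 * y0)
    (hY : Y0 ^ 2 + Y1 ^ 2 + Y2 ^ 2 = 1 / 2) (hXY : X0 * Y0 + X1 * Y1 + X2 * Y2 = 0)
    (hcs : cr ^ 2 + ci ^ 2 = 1)
    (G0r : X0 = -(cr * (7 * x0 + 4 * x1 + 4 * ρ) - ci * (7 * y0 + 4 * y1)) / 9)
    (G0i : Y0 = -(ci * (7 * x0 + 4 * x1 + 4 * ρ) + cr * (7 * y0 + 4 * y1)) / 9)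
    (G1r : X1 = -(cr * (-4 * x0 + 8 * x1 - ρ) - ci * (-4 * y0 + 8 * y1)) / 9)
    (G1i : Y1 = -(ci * (-4 * x0 + 8 * x1 - ρ) + cr * (-4 * y0 + 8 * y1)) / 9)
    (G2r : X2 = -(cr * x2 - ci * y2))
    (G2i : Y2 = -(ci * x2 + cr * y2))
    (G3r : ρ = -(cr * (-4 * x0 - x1 + 8 * ρ) - ci * (-4 * y0 - y1)) / 9)
    (G3i : 0 = -(ci * (-4 * x0 - x1 + 8 * ρ) + cr * (-4 * y0 - y1)) / 9) :
    (X0 = x0 ∧ X1 = x1 ∧ X2 = x2 ∧ Y0 = y0 ∧ Y1 = y1 ∧ Y2 = y2) ∨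
    (X0 = -x0 ∧ X1 = x1 ∧ X2 = -x2 ∧ Y0 = y0 ∧ Y1 = -y1 ∧ Y2 = y2 ∧ x0 * y2 - x2 * y0 = 0) := by
  -- the two `Lᵀ`-invariant 2-forms
  have hω1 : X0 * Y1 - X1 * Y0 - ρ * Y0 = x0 * y1 - x1 * y0 - ρ * y0 := by
    rw [G0r, G0i, G1r, G1i]
    linear_combination
      (((7 * x0 + 4 * x1 + 4 * ρ) / 9) * ((-4 * y0 + 8 * y1) / 9)
        - ((-4 * x0 + 8 * x1 - ρ) / 9) * ((7 * y0 + 4 * y1) / 9)
        + ((7 * x0 + 4 * x1 + 4 * ρ) / 9) * ((-4 * y0 - y1) / 9)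
        - ((-4 * x0 - x1 + 8 * ρ) / 9) * ((7 * y0 + 4 * y1) / 9)) * hcs
      + (-(cr * (7 * x0 + 4 * x1 + 4 * ρ) - ci * (7 * y0 + 4 * y1)) / 9) * G3i
      - (-(ci * (7 * x0 + 4 * x1 + 4 * ρ) + cr * (7 * y0 + 4 * y1)) / 9) * G3r
  have hω2 : X2 * Y1 - X1 * Y2 + ρ * Y2 = x2 * y1 - x1 * y2 + ρ * y2 := by
    rw [G1r, G1i, G2r, G2i]
    linear_combination
      (x2 * ((-4 * y0 + 8 * y1) / 9) - ((-4 * x0 + 8 * x1 - ρ) / 9) * y2
        - (x2 * ((-4 * y0 - y1) / 9) - ((-4 * x0 - x1 + 8 * ρ) / 9) * y2)) * hcs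
      - (-(cr * x2 - ci * y2)) * G3i
      + (-(ci * x2 + cr * y2)) * G3r
  have hY0 : Y0 = y0 := by
    have : ρ * (Y0 - y0) = 0 := by linear_combination hc01 - hω1
    rcases mul_eq_zero.mp this with h | h
    · exact absurd h hρ
    · linarith
  have hY2 : Y2 = y2 := by
    have : ρ * (Y2 - y2) = 0 := by linear_combination hω2 + hc12
    rcases mul_eq_zero.mp this with h | h
    · exact absurd h hρ
    · linarith
  have hY1sq : (Y1 - y1) * (Y1 + y1) = 0 := by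
    rw [hY0, hY2] at hY
    linear_combination hY - hy
  rcases mul_eq_zero.mp hY1sq with h | h
  · -- case A
    have hY1 : Y1 = y1 := by linarith
    left
    simp only [hY0, hY1, hY2] at hc01 hc12 hc02 hXY
    obtain ⟨h0, h1, h2⟩ := dichotomy_lagrange (X0 - x0) (X1 - x1) (X2 - x2) y0 y1 y2 hy
      (by linear_combination hc01) (by linear_combination hc12) (by linear_combination hc02)
      (by linear_combination hXY - hxy)
    exact ⟨by linarith, by linarith, by linarith, hY0, hY1, hY2⟩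
  · have hY1 : Y1 = -y1 := by linarith
    by_cases hy1 : y1 = 0
    · -- then `Y1 = y1` as well: case A again
      have hY1' : Y1 = y1 := by rw [hY1, hy1]; simp
      left
      simp only [hY0, hY1', hY2] at hc01 hc12 hc02 hXY
      obtain ⟨h0, h1, h2⟩ := dichotomy_lagrange (X0 - x0) (X1 - x1) (X2 - x2) y0 y1 y2 hy
        (by linear_combination hc01) (by linear_combination hc12) (by linear_combination hc02)
        (by linear_combination hXY - hxy)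
      exact ⟨by linarith, by linarith, by linarith, hY0, hY1', hY2⟩
    · -- case B
      right
      simp only [hY0, hY1, hY2] at hc01 hc12 hc02 hXY
      have hπ : x0 * y2 - x2 * y0 = 0 := by
        have : 2 * y1 * (x0 * y2 - x2 * y0) = 0 := by
          linear_combination -(y0 * hc12 + y1 * hc02 + y2 * hc01)
        rcases mul_eq_zero.mp this with h' | h'
        · exact absurd (by linarith : y1 = 0) hy1
        · exact h'
      have hY' : y0 ^ 2 + (-y1) ^ 2 + y2 ^ 2 = 1 / 2 := by linear_combination hy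
      obtain ⟨h0, h1, h2⟩ := dichotomy_lagrange (X0 + x0) (X1 - x1) (X2 + x2) y0 (-y1) y2 hY'
        (by linear_combination hc01) (by linear_combination hc12)
        (by linear_combination hc02 + 2 * hπ)
        (by linear_combination hXY + hxy)
      exact ⟨by linarith, by linarith, by linarith, hY0, hY1, hY2, hπ⟩

end Crest.Agent.S0316
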